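import Mathlib

namespace Vale.Agent.Lib.P196

/-- Day's class of elementary amenable groups: the smallest class of groups that contains all
finite groups and all abelian groups and is closed under subgroups and isomorphic copies
(`of_injective`), quotients (`of_surjective`), group extensions (`of_extension`) and directed
unions (`of_directed_union`). -/
inductive ElementaryAmenable : (G : Type) → [Group G] → Prop
  | of_finite (G : Type) [Group G] [Finite G] : ElementaryAmenable G
  | of_comm (G : Type) [Group G] (h : ∀ a b : G, a * b = b * a) : ElementaryAmenable G
  | of_injective {G H : Type} [Group G] [Group H] (f : G →* H) (hf : Function.Injective f) :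
      ElementaryAmenable H → ElementaryAmenable G
  | of_surjective {G H : Type} [Group G] [Group H] (f : G →* H) (hf : Function.Surjective f) :
      ElementaryAmenable G → ElementaryAmenable H
  | of_extension {G H : Type} [Group G] [Group H] (f : G →* H) (hf : Function.Surjective f) :
      ElementaryAmenable f.ker → ElementaryAmenable H → ElementaryAmenable G
  | of_directed_union {G : Type} [Group G] {ι : Type} (K : ι → Subgroup G)
      (hdir : Directed (· ≤ ·) K) (hcov : ∀ g : G, ∃ i, g ∈ K i) :
      (∀ i, ElementaryAmenable (K i)) → ElementaryAmenable G

/-- `G` is locally embeddable into the class `C` of groups: every finite subset `E` of `G`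
admits a map into some group of the class `C` that is injective on `E` and preserves every
product `g * h` with `g`, `h` and `g * h` in `E`. -/
def LocallyEmbeddable (C : (H : Type) → [Group H] → Prop) (G : Type) [Group G] : Prop :=
  ∀ E : Finset G, ∃ (H : Type) (_ : Group H), C H ∧ ∃ f : G → H, Set.InjOn f (E : Set G) ∧
    ∀ g ∈ E, ∀ h ∈ E, g * h ∈ E → f (g * h) = f g * f h

end Vale.Agent.Lib.P196
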