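import Mathlib
import Vale.Agent.Lib.P196.Defs

namespace Vale.Agent.Lib.P196

/-- every finitely generated simple section (homomorphic image of a subgroup) of `G` is
finite -/
def SectionsFinite (G : Type) [Group G] : Prop :=
  ∀ (S : Type) [Group S] [IsSimpleGroup S] [Group.FG S] (K : Subgroup G) (π : K →* S),
    Function.Surjective π → Finite S

/-- restriction of a homomorphism defined on the subgroup `K` of `G` to the part of `K` lying
in another subgroup `A`, viewed as a subgroup of `A` -/
def restrictHom {G S : Type} [Group G] [Group S] (A K : Subgroup G) (π : K →* S) :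
    (K.subgroupOf A) →* S :=
  π.comp ((A.subtype.comp (K.subgroupOf A).subtype).codRestrict K
    (fun x => Subgroup.mem_subgroupOf.mp x.2))

theorem restrictHom_apply {G S : Type} [Group G] [Group S] (A K : Subgroup G) (π : K →* S)
    (g : G) (hA : g ∈ A) (hK : g ∈ K) :
    restrictHom A K π ⟨⟨g, hA⟩, Subgroup.mem_subgroupOf.mpr hK⟩ = π ⟨g, hK⟩ := rfl

theorem sectionsFinite_of_finite (G : Type) [Group G] [Finite G] : SectionsFinite G := by
  intro S _ _ _ K π hπ
  exact Finite.of_surjective π hπ

theorem sectionsFinite_of_comm (G : Type) [Group G] (hc : ∀ a b : G, a * b = b * a) :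
    SectionsFinite G := by
  intro S instS hsimple _ K π hπ
  have hS : ∀ x y : S, x * y = y * x := by
    intro x y
    obtain ⟨a, rfl⟩ := hπ x
    obtain ⟨b, rfl⟩ := hπ y
    rw [← map_mul, ← map_mul]
    congr 1
    exact Subtype.ext (hc _ _)
  let _ : CommGroup S := { instS with mul_comm := hS }
  exact @IsSimpleGroup.finite S _ hsimple

theorem sectionsFinite_of_injective {G H : Type} [Group G] [Group H] (f : G →* H)
    (hf : Function.Injective f) (ih : SectionsFinite H) : SectionsFinite G := by
  intro S _ _ _ K π hπ
  have e : K ≃* K.map f := K.equivMapOfInjective f hf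
  exact ih S (K.map f) (π.comp e.symm.toMonoidHom) (hπ.comp e.symm.surjective)

theorem sectionsFinite_of_surjective {G H : Type} [Group G] [Group H] (f : G →* H)
    (hf : Function.Surjective f) (ih : SectionsFinite G) : SectionsFinite H := by
  intro S _ _ _ K π hπ
  exact ih S (K.comap f) (π.comp (f.subgroupComap K))
    (hπ.comp (f.subgroupComap_surjective_of_surjective K hf))

theorem sectionsFinite_of_extension {G H : Type} [Group G] [Group H] (f : G →* H)
    (ihk : SectionsFinite f.ker) (ihH : SectionsFinite H) : SectionsFinite G := by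
  intro S _ hsimple _ K π hπ
  have hnormal : ((f.ker.subgroupOf K).map π).Normal :=
    Subgroup.Normal.map inferInstance π hπ
  rcases hsimple.eq_bot_or_eq_top_of_normal _ hnormal with hbot | htop
  · -- the section is a section of `H`
    have hker : (f.subgroupMap K).ker ≤ π.ker := by
      intro x hx
      rw [MonoidHom.mem_ker] at hx ⊢
      have hx' : f (x : G) = 1 := by
        have := congrArg Subtype.val hx
        simpa using this
      have hmem : π x ∈ (f.ker.subgroupOf K).map π :=
        Subgroup.mem_map_of_mem π (Subgroup.mem_subgroupOf.mpr (MonoidHom.mem_ker.mpr hx'))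
      rw [hbot] at hmem
      exact Subgroup.mem_bot.mp hmem
    have hsurj := f.subgroupMap_surjective K
    refine ihH S (K.map f) ((f.subgroupMap K).liftOfSurjective hsurj ⟨π, hker⟩) ?_
    intro s
    obtain ⟨k, rfl⟩ := hπ s
    exact ⟨f.subgroupMap K k, MonoidHom.liftOfRightInverse_comp_apply _ _ _ _ k⟩
  · -- the section is a section of the kernel
    refine ihk S (K.subgroupOf f.ker) (restrictHom f.ker K π) ?_
    intro s
    have hs : s ∈ (f.ker.subgroupOf K).map π := by rw [htop]; exact Subgroup.mem_top s
    obtain ⟨k, hk, rfl⟩ := Subgroup.mem_map.mp hs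
    have hkA : (k : G) ∈ f.ker := Subgroup.mem_subgroupOf.mp hk
    exact ⟨⟨⟨k, hkA⟩, Subgroup.mem_subgroupOf.mpr k.2⟩, rfl⟩


theorem sectionsFinite_of_directed_union {G : Type} [Group G] {ι : Type} (K : ι → Subgroup G)
    (hdir : Directed (· ≤ ·) K) (hcov : ∀ g : G, ∃ i, g ∈ K i)
    (ih : ∀ i, SectionsFinite (K i)) : SectionsFinite G := by
  classical
  intro S _ _ hFG L π hπ
  obtain ⟨T, hT, hTfin⟩ := Group.fg_iff.mp hFG
  choose k hk using hπ
  choose idx hidx using hcov
  have : Nonempty ι := ⟨idx 1⟩
  obtain ⟨z, hz⟩ := hdir.finset_le (hTfin.toFinset.image (fun t => idx (k t : G)))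
  have hmem : ∀ t ∈ T, ((k t : L) : G) ∈ K z := by
    intro t ht
    have := hz (idx (k t : G)) (Finset.mem_image.mpr ⟨t, hTfin.mem_toFinset.mpr ht, rfl⟩)
    exact this (hidx _)
  refine ih z S (L.subgroupOf (K z)) (restrictHom (K z) L π) ?_
  rw [← MonoidHom.range_eq_top, eq_top_iff, ← hT, Subgroup.closure_le]
  intro t ht
  exact ⟨⟨⟨(k t : G), hmem t ht⟩, Subgroup.mem_subgroupOf.mpr (k t).2⟩, hk t⟩

theorem elementaryAmenable_sectionsFinite {G : Type} [Group G] (h : ElementaryAmenable G) :
    SectionsFinite G := by
  induction h with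
  | of_finite G => exact sectionsFinite_of_finite G
  | of_comm G hc => exact sectionsFinite_of_comm G hc
  | of_injective f hf _ ih => exact sectionsFinite_of_injective f hf ih
  | of_surjective f hf _ ih => exact sectionsFinite_of_surjective f hf ih
  | of_extension f hf _ _ ihk ihH => exact sectionsFinite_of_extension f ihk ihH
  | of_directed_union K hdir hcov _ ih => exact sectionsFinite_of_directed_union K hdir hcov ih

theorem injective_of_simple {S H : Type} [Group S] [Group H] [hs : IsSimpleGroup S]
    (ψ : S →* H) (s0 : S) (h : ψ s0 ≠ 1) : Function.Injective ψ := by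
  rw [← MonoidHom.ker_eq_bot_iff]
  rcases hs.eq_bot_or_eq_top_of_normal ψ.ker inferInstance with hb | ht
  · exact hb
  · exfalso
    apply h
    have : s0 ∈ ψ.ker := by rw [ht]; exact Subgroup.mem_top _
    exact MonoidHom.mem_ker.mp this

theorem finite_of_embedding {S H : Type} [Group S] [Group H] [IsSimpleGroup S] [Group.FG S]
    (hH : SectionsFinite H) (ψ : S →* H) (hψ : Function.Injective ψ) : Finite S :=
  hH S ψ.range (MonoidHom.ofInjective hψ).symm.toMonoidHom
    (MonoidHom.ofInjective hψ).symm.surjective

theorem fg_of_fp (S : Type) [Group S] [h : Group.IsFinitelyPresented S] : Group.FG S := by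
  obtain ⟨n, φ, hφ, _⟩ := h.out
  exact Group.fg_of_surjective hφ

end Vale.Agent.Lib.P196
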