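import Mathlib
import Vale.Agent.Lib.P196.Defs

namespace Vale.Agent.Lib.P196

/-- The smallest class of groups that contains all elementary amenable groups and is closed
under group extensions, directed unions and local embeddability: a group every finite subset
of which admits a map into some group of the class, injective on the subset and preserving
the products that stay in the subset, is again in the class (in particular the class is
closed under subgroups and isomorphic copies). -/
inductive Approximable : (G : Type) → [Group G] → Prop
  | of_elementary (G : Type) [Group G] : ElementaryAmenable G → Approximable G
  | of_extension {G H : Type} [Group G] [Group H] (f : G →* H) (hf : Function.Surjective f) :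
      Approximable f.ker → Approximable H → Approximable G
  | of_directed_union {G : Type} [Group G] {ι : Type} (K : ι → Subgroup G)
      (hdir : Directed (· ≤ ·) K) (hcov : ∀ g : G, ∃ i, g ∈ K i) :
      (∀ i, Approximable (K i)) → Approximable G
  | of_locally_embeddable {G : Type} [Group G] (H : Finset G → Type) [∀ E, Group (H E)]
      (f : ∀ E, G → H E) (hinj : ∀ E : Finset G, Set.InjOn (f E) (E : Set G))
      (hmul : ∀ E : Finset G, ∀ g ∈ E, ∀ h ∈ E, g * h ∈ E → f E (g * h) = f E g * f E h) :
      (∀ E, Approximable (H E)) → Approximable G

end Vale.Agent.Lib.P196
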