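import Mathlib
import Vale.Agent.Lib.P196.Defs

namespace Vale.Agent.Lib.P196

/-- a partial homomorphism on a set is multiplicative along lists all of whose prefix products
stay in the set -/
theorem list_prod_partial {S H : Type} [Group S] [Group H] (f : S → H) (E : Set S)
    (h1 : f 1 = 1) (hmul : ∀ g ∈ E, ∀ h ∈ E, g * h ∈ E → f (g * h) = f g * f h) :
    ∀ M : List S, (∀ x ∈ M, x ∈ E) → (∀ k, (M.take k).prod ∈ E) →
      (M.map f).prod = f M.prod := by
  intro M
  induction M using List.reverseRecOn with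
  | nil => intro _ _; simp [h1]
  | append_singleton M x ih =>
    intro hmem hpre
    have hMpre : M.prod ∈ E := by
      have := hpre M.length
      rwa [List.take_append_of_le_length le_rfl, List.take_length] at this
    have hM : (M.map f).prod = f M.prod := by
      apply ih
      · intro y hy; exact hmem y (List.mem_append_left _ hy)
      · intro k
        by_cases hk : k ≤ M.length
        · have := hpre k
          rwa [List.take_append_of_le_length hk] at this
        · have h' : M.take k = M := List.take_of_length_le (by omega)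
          rw [h']; exact hMpre
    rw [List.map_append, List.prod_append, List.prod_append, hM]
    simp only [List.map_cons, List.map_nil, List.prod_cons, List.prod_nil, mul_one]
    symm
    apply hmul
    · exact hMpre
    · exact hmem x (by simp)
    · have := hpre (M.length + 1)
      rw [List.take_of_length_le (by simp)] at this
      simpa [List.prod_append] using this


/-- A finitely presented group that is locally embeddable into a class `C` has, for each
nontrivial element, a homomorphism to a group of `C` not killing that element. -/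
theorem exists_hom_of_fp {S : Type} [Group S] [hfp : Group.IsFinitelyPresented S]
    (C : (H : Type) → [Group H] → Prop) (hLE : LocallyEmbeddable C S) (s0 : S) (hs0 : s0 ≠ 1) :
    ∃ (H : Type) (_ : Group H), C H ∧ ∃ ψ : S →* H, ψ s0 ≠ 1 := by
  classical
  obtain ⟨n, φ, hφ, R, hRfin, hR⟩ := hfp.out
  obtain ⟨w0, hw0⟩ := hφ s0
  obtain ⟨a, ha⟩ : ∃ a : Fin n → S, a = fun i => φ (FreeGroup.of i) := ⟨_, rfl⟩
  have hφlift : φ = FreeGroup.lift a := by
    ext i; simp [ha]
  obtain ⟨N, hN1, hNw, hNR⟩ : ∃ N : ℕ, 1 ≤ N ∧ w0.toWord.length ≤ N ∧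
      ∀ r ∈ R, r.toWord.length ≤ N := by
    obtain ⟨B, hB⟩ := (hRfin.image (fun r => r.toWord.length)).bddAbove
    refine ⟨max 1 (max w0.toWord.length B), le_max_left _ _,
      (le_max_left _ _).trans (le_max_right _ _), ?_⟩
    intro r hr
    exact (hB ⟨r, hr, rfl⟩).trans ((le_max_right _ _).trans (le_max_right _ _))
  obtain ⟨E, hE⟩ : ∃ E : Finset S, E = ((List.finite_length_le (Fin n × Bool) N).toFinset).image
      (fun L => φ (FreeGroup.mk L)) := ⟨_, rfl⟩
  have hEmem : ∀ L : List (Fin n × Bool), L.length ≤ N → φ (FreeGroup.mk L) ∈ E := by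
    intro L hL
    rw [hE, Finset.mem_image]
    exact ⟨L, by simpa using hL, rfl⟩
  obtain ⟨H, instH, hCH, f, hinj, hmul⟩ := hLE E
  have h1E : (1 : S) ∈ E := by
    have := hEmem [] (by simp)
    rwa [← FreeGroup.one_eq_mk, map_one] at this
  have hf1 : f 1 = 1 := by
    have := hmul 1 h1E 1 h1E (by simpa using h1E)
    rw [mul_one] at this
    exact (mul_eq_left.mp this.symm)
  obtain ⟨ℓ, hℓ⟩ : ∃ ℓ : Fin n × Bool → S, ℓ = fun x => cond x.2 (a x.1) (a x.1)⁻¹ := ⟨_, rfl⟩
  have hφmk : ∀ L, φ (FreeGroup.mk L) = (L.map ℓ).prod := by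
    intro L; rw [hφlift, hℓ]; rfl
  have hℓE : ∀ x, ℓ x ∈ E := by
    intro x
    have := hEmem [x] (by simpa using hN1)
    rw [hφmk] at this
    simpa using this
  have hfinv : ∀ i, f (a i)⁻¹ = (f (a i))⁻¹ := by
    intro i
    have hai : a i ∈ E := by
      have := hℓE (i, true)
      rwa [hℓ] at this
    have hai' : (a i)⁻¹ ∈ E := by
      have := hℓE (i, false)
      rwa [hℓ] at this
    have := hmul (a i) hai (a i)⁻¹ hai' (by simpa using h1E)
    rw [mul_inv_cancel, hf1] at this
    exact eq_inv_of_mul_eq_one_right this.symm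
  have hfℓ : ∀ x, f (ℓ x) = cond x.2 (f (a x.1)) (f (a x.1))⁻¹ := by
    rintro ⟨i, b⟩
    rw [hℓ]
    cases b
    · exact hfinv i
    · rfl
  obtain ⟨θ, hθ⟩ : ∃ θ : FreeGroup (Fin n) →* H, θ = FreeGroup.lift (fun i => f (a i)) :=
    ⟨_, rfl⟩
  have hθmk : ∀ L : List (Fin n × Bool), L.length ≤ N →
      θ (FreeGroup.mk L) = f (φ (FreeGroup.mk L)) := by
    intro L hL
    rw [hφmk L]
    have h2 : θ (FreeGroup.mk L) = ((L.map ℓ).map f).prod := by
      rw [hθ, FreeGroup.lift_mk, List.map_map]
      congr 1
      apply List.map_congr_left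
      intro x _
      exact (hfℓ x).symm
    rw [h2]
    apply list_prod_partial f (E : Set S) hf1 (fun g hg h hh hgh => hmul g hg h hh hgh)
    · intro y hy
      obtain ⟨x, _, rfl⟩ := List.mem_map.mp hy
      exact hℓE x
    · intro k
      rw [← List.map_take, ← hφmk]
      exact hEmem _ ((List.length_take_le' _ _).trans hL)
  have hθw : ∀ w : FreeGroup (Fin n), w.toWord.length ≤ N → θ w = f (φ w) := by
    intro w hw
    have := hθmk w.toWord hw
    rwa [FreeGroup.mk_toWord] at this
  have hker : φ.ker ≤ θ.ker := by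
    rw [← hR]
    apply Subgroup.normalClosure_le_normal
    intro r hr
    rw [SetLike.mem_coe, MonoidHom.mem_ker, hθw r (hNR r hr)]
    have hr1 : φ r = 1 := by
      have : r ∈ φ.ker := by rw [← hR]; exact Subgroup.subset_normalClosure hr
      exact MonoidHom.mem_ker.mp this
    rw [hr1, hf1]
  refine ⟨H, instH, hCH, φ.liftOfSurjective hφ ⟨θ, hker⟩, ?_⟩
  rw [← hw0, MonoidHom.liftOfRightInverse_comp_apply]
  show θ w0 ≠ 1
  rw [hθw w0 hNw, hw0, ← hf1]
  intro h
  have hs0E : s0 ∈ E := by
    rw [← hw0, ← FreeGroup.mk_toWord (x := w0)]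
    exact hEmem _ hNw
  exact hs0 (hinj hs0E h1E h)

end Vale.Agent.Lib.P196
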