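import Mathlib
import Vale.Agent.Lib.P196.Defs
import Vale.Agent.Lib.P196.DefsApprox
import Vale.Agent.Lib.P196.Presented
import Vale.Agent.Lib.P196.Chou

namespace Vale.Agent.Lib.P196

theorem fp_simple_le_ea_finite (G : Type) [Group G] [IsSimpleGroup G]
    [Group.IsFinitelyPresented G] (h : LocallyEmbeddable @ElementaryAmenable G) : Finite G := by
  obtain ⟨s0, hs0⟩ := exists_ne (1 : G)
  obtain ⟨H, _, hEA, ψ, hψ⟩ := exists_hom_of_fp @ElementaryAmenable h s0 hs0
  have := fg_of_fp G
  exact finite_of_embedding (elementaryAmenable_sectionsFinite hEA) ψ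
    (injective_of_simple ψ s0 hψ)

/-- every finitely presented simple group that embeds in `G` is finite -/
def NoInfFpSimpleSubgroup (G : Type) [Group G] : Prop :=
  ∀ (S : Type) [Group S] [IsSimpleGroup S] [Group.IsFinitelyPresented S] (j : S →* G),
    Function.Injective j → Finite S

theorem approximable_no_subgroup {G : Type} [Group G] (h : Approximable G) :
    NoInfFpSimpleSubgroup G := by
  induction h with
  | of_elementary G hEA =>
    intro S _ _ _ j hj
    have := fg_of_fp S
    exact finite_of_embedding (elementaryAmenable_sectionsFinite hEA) j hj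
  | of_extension f hf _ _ ihk ihH =>
    intro S _ hsimple _ j hj
    rcases hsimple.eq_bot_or_eq_top_of_normal (f.comp j).ker inferInstance with hb | ht
    · exact ihH S (f.comp j) ((MonoidHom.ker_eq_bot_iff _).mp hb)
    · have hmem : ∀ s, j s ∈ f.ker := by
        intro s
        have : s ∈ (f.comp j).ker := by rw [ht]; exact Subgroup.mem_top s
        exact MonoidHom.mem_ker.mpr (MonoidHom.mem_ker.mp this)
      refine ihk S (j.codRestrict f.ker hmem) ?_
      intro x y hxy
      apply hj
      have := congrArg Subtype.val hxy
      simpa using this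
  | of_directed_union K hdir hcov _ ih =>
    intro S _ _ _ j hj
    classical
    have hfg := fg_of_fp S
    obtain ⟨T, hT, hTfin⟩ := Group.fg_iff.mp hfg
    choose idx hidx using hcov
    have hne : Nonempty _ := ⟨idx 1⟩
    obtain ⟨z, hz⟩ := hdir.finset_le (hTfin.toFinset.image (fun t => idx (j t)))
    have hmem : ∀ s, j s ∈ K z := by
      intro s
      have hs : s ∈ Subgroup.closure T := by rw [hT]; exact Subgroup.mem_top s
      have hle : Subgroup.closure T ≤ (K z).comap j := by
        rw [Subgroup.closure_le]
        intro t ht
        exact hz (idx (j t)) (Finset.mem_image.mpr ⟨t, hTfin.mem_toFinset.mpr ht, rfl⟩)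
          (hidx _)
      exact hle hs
    refine ih z S (j.codRestrict (K z) hmem) ?_
    intro x y hxy
    apply hj
    have := congrArg Subtype.val hxy
    simpa using this
  | of_locally_embeddable H f hinj hmul _ ih =>
    intro S _ hsimple _ j hj
    classical
    obtain ⟨s0, hs0⟩ := exists_ne (1 : S)
    have hLE : LocallyEmbeddable @NoInfFpSimpleSubgroup S := by
      intro E
      refine ⟨H (E.image j), inferInstance, ih (E.image j), fun s => f (E.image j) (j s), ?_, ?_⟩
      · intro x hx y hy hxy
        apply hj
        exact hinj (E.image j) (Finset.mem_coe.mpr (Finset.mem_image_of_mem j hx))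
          (Finset.mem_coe.mpr (Finset.mem_image_of_mem j hy)) hxy
      · intro g hg h hh hgh
        show f (E.image j) (j (g * h)) = f (E.image j) (j g) * f (E.image j) (j h)
        rw [map_mul]
        apply hmul
        · exact Finset.mem_image_of_mem j hg
        · exact Finset.mem_image_of_mem j hh
        · rw [← map_mul]; exact Finset.mem_image_of_mem j hgh
    obtain ⟨H', _, hH', ψ, hψ⟩ := exists_hom_of_fp @NoInfFpSimpleSubgroup hLE s0 hs0
    exact hH' S ψ (injective_of_simple ψ s0 hψ)

end Vale.Agent.Lib.P196
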